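import Vale.Agent.P097.H6.TopC
import Vale.Agent.P097.H531.GW.Out

/-!
# P097 : natural boundary with slow growth
-/

set_option linter.all false

open Complex Metric Filter Topology Set
open scoped ComplexConjugate

namespace Vale.Agent.P097.H256

open Vale.Agent.P097 Vale.Agent.P097.TA Vale.Agent.P097.H202 Vale.Agent.P097.SC Vale.Agent.P097.H6

/-- growth at the lines `Im z = b` and `Im z = -b`, in terms of the distance `b - |Im z|` to them: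
for every `ε > 0`, `F z - 2 π z` and `F'` are `O (exp (C (b - |Im z|) ^ (-ε)))`, and `G`, `G'` are
`O (exp (exp (C (b - |Im z|) ^ (-ε))))` -/
def Slow (b : ℝ) (F G : ℂ → ℂ) : Prop :=
  ∀ ε : ℝ, 0 < ε → ∃ C : ℝ, ∀ z : ℂ, |z.im| < b →
    ‖F z - 2 * Real.pi * z‖ ≤ Real.exp (C * (b - |z.im|) ^ (-ε)) ∧
    ‖deriv F z‖ ≤ Real.exp (C * (b - |z.im|) ^ (-ε)) ∧
    ‖G z‖ ≤ Real.exp (Real.exp (C * (b - |z.im|) ^ (-ε))) ∧
    ‖deriv G z‖ ≤ Real.exp (Real.exp (C * (b - |z.im|) ^ (-ε)))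

theorem slow_of {κ Λ b : ℝ} {H Φ : ℂ → ℂ} {r e : ℝ} {α p : ℂ → ℂ → ℂ} {J F q : ℂ → ℂ}
    (E : CC.En κ Λ b H Φ r e α p J F q) : Slow b F q := by
  intro ε hε
  obtain ⟨Q, B⟩ := CC.rowB E
  obtain ⟨C, -, h⟩ := GW.growth E B hε
  refine ⟨C, fun z hz => ?_⟩
  obtain ⟨h1, h2, -, h4, h5, -⟩ := h z hz
  exact ⟨h1, h2, h4, h5⟩

/-- **natural boundary with slow growth**, support functions -/
theorem natb_slow {h : ℝ → ℝ} {η : ℝ} (h0 : 0 < η) (Hs : SmoothTable h)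
    (hL : Collar h η ∨ H407.Leaves h η) (hE : ¬ H407.IsEllipse h) :
    ∃ (Λ : ℝ) (φ : ℝ → ℝ), LazAngle h Λ φ ∧
      ∃ (b : ℝ) (F G : ℂ → ℂ), 0 < b ∧ Ext {z | |z.im| < b} φ (fun x => h (φ x)) F G ∧
        NatBd b F G ∧ Slow b F G := by
  obtain ⟨η', hη', hc⟩ := Alg.collar_of h0 Hs hL
  obtain ⟨κ, ρ, Λ, L, H, HH, lam, Φ, l, φ, r, e, α, p, J, W⟩ := wd_of_collar hη' Hs hc
  refine ⟨Λ, φ, lazAngle_of W.ld, ?_⟩
  rcases (tri W hE).2 with ⟨Φb, qb, h1⟩ | ⟨b, Φb, qb, hb, h1, h2⟩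
  · exact absurd (caseD W (tri W hE).1 h1) hE
  · exact ⟨b, Φb, qb, hb, ext_of W.ld h1, natBd_of h2, slow_of (en_of W (tri W hE).1 hb h1 h2)⟩

/-- literal form -/
theorem natb_slow_table (B : H438.Table) (hB : B.IntegrableNearBoundary)
    (hE : ¬ H438.EllipseDomain B.Ω) :
    ∃ (Λ : ℝ) (φ : ℝ → ℝ), LazAngle (H536.supp B.Ω) Λ φ ∧
      ∃ (b : ℝ) (F G : ℂ → ℂ), 0 < b ∧
        Ext {z | |z.im| < b} φ (fun x => H536.supp B.Ω (φ x)) F G ∧ NatBd b F G ∧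
          Slow b F G := by
  obtain ⟨η, hη, hc⟩ := B.collar_of_integrable hB
  have e : H536.supp B.Ω = B.hs := funext (H536.supp_eq B)
  rw [e]
  refine natb_slow hη B.hs_table (Or.inl hc) fun h1 => hE ?_
  obtain ⟨a, b, φ, p, q, ha, hb, h⟩ := h1
  exact B.ellipse_of_support ha hb fun ψ => congrFun h ψ

end Vale.Agent.P097.H256
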